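import Vale.Agent.P004H.H792.F11

/-!
# `S_2(Γ₀(11)) = ℂ F` and weight-zero forms on `Γ₀(11)` are constant

Row R2a of the P004 `X_0(11)` table.
-/

open UpperHalfPlane hiding I
open Complex Real MatrixGroups ModularForm CongruenceSubgroup Filter Asymptotics Manifold
open Matrix.SpecialLinearGroup (mapGL)
open scoped Topology

namespace Vale.Agent.P004H.H833

open Vale.Agent.P004H.H792 (F Fc F_eq F_slash F_ne Fc_ne Fc_W Fc_S Fc_diff)

/-- Every element of `SL(2,ℤ)` lies in `Γ₀(11)` or in some `Γ₀(11) S T^j`. -/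
theorem cases11 (g : SL(2, ℤ)) : g ∈ Gamma0 11 ∨
    ∃ g0 ∈ Gamma0 11, ∃ j : ℤ, g = g0 * (ModularGroup.S * ModularGroup.T ^ j) := by
  by_cases h : g ∈ Gamma0 11
  · exact Or.inl h
  · right
    rw [Gamma0_mem] at h
    have : Fact (Nat.Prime 11) := ⟨by norm_num⟩
    obtain ⟨j, hj⟩ : ∃ j : ℤ, ((g 1 0 * j - g 1 1 : ℤ) : ZMod 11) = 0 := by
      refine ⟨((((g 1 1 : ℤ) : ZMod 11) * ((g 1 0 : ℤ) : ZMod 11)⁻¹).val : ℤ), ?_⟩
      push_cast
      rw [ZMod.natCast_zmod_val]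
      field_simp
      ring
    refine ⟨g * (ModularGroup.S * ModularGroup.T ^ j)⁻¹, ?_, j, by group⟩
    rw [Gamma0_mem, ← hj]
    congr 1
    simp [Matrix.mul_apply, Fin.sum_univ_two, ModularGroup.coe_T_zpow, ModularGroup.coe_S,
      Matrix.adjugate_fin_two, sub_eq_add_neg]

theorem T_zpow_ten (j : ℤ) : (mapGL ℝ (ModularGroup.T ^ j) : GL (Fin 2) ℝ) 1 0 = 0 := by
  have h : ((ModularGroup.T ^ j : SL(2, ℤ)) : Matrix (Fin 2) (Fin 2) ℤ) 1 0 = 0 := by
    simp [ModularGroup.coe_T_zpow]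
  have h2 : (mapGL ℝ (ModularGroup.T ^ j) : GL (Fin 2) ℝ) 1 0
      = (((ModularGroup.T ^ j : SL(2, ℤ)) : Matrix (Fin 2) (Fin 2) ℤ) 1 0 : ℝ) := rfl
  rw [h2, h, Int.cast_zero]

theorem bdd_slash {k : ℤ} {G : ℍ → ℂ} (hG : ∀ g ∈ Gamma0 11, G ∣[k] g = G)
    (hinf : IsBoundedAtImInfty G) (h0 : IsBoundedAtImInfty (G ∣[k] ModularGroup.S))
    (g : SL(2, ℤ)) : IsBoundedAtImInfty (G ∣[k] g) := by
  rcases cases11 g with h | ⟨g0, h0', j, rfl⟩
  · rwa [hG g h]
  · rw [SlashAction.slash_mul, hG g0 h0', SlashAction.slash_mul]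
    rw [ModularForm.SL_slash]
    exact h0.slash _ (T_zpow_ten j)

theorem zero_slash {k : ℤ} {G : ℍ → ℂ} (hG : ∀ g ∈ Gamma0 11, G ∣[k] g = G)
    (hinf : IsZeroAtImInfty G) (h0 : IsZeroAtImInfty (G ∣[k] ModularGroup.S))
    (g : SL(2, ℤ)) : IsZeroAtImInfty (G ∣[k] g) := by
  rcases cases11 g with h | ⟨g0, h0', j, rfl⟩
  · rwa [hG g h]
  · rw [SlashAction.slash_mul, hG g0 h0', SlashAction.slash_mul]
    rw [ModularForm.SL_slash]
    exact h0.slash _ (T_zpow_ten j)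

theorem slash_zero (G : ℍ → ℂ) (g : SL(2, ℤ)) : G ∣[(0 : ℤ)] g = fun z => G (g • z) := by
  ext z
  rw [SL_slash_apply]
  simp

/-- A holomorphic `Γ₀(11)`-invariant function bounded at both cusps is constant. -/
theorem zero_of (G : ℍ → ℂ) (hG : MDiff G)
    (hinv : ∀ g ∈ Gamma0 11, ∀ z : ℍ, G (g • z) = G z)
    (hinf : IsBoundedAtImInfty G)
    (h0 : IsBoundedAtImInfty fun z : ℍ => G (ModularGroup.S • z)) :
    ∃ c, ∀ z, G z = c := by
  have hs : ∀ g ∈ Gamma0 11, G ∣[(0 : ℤ)] g = G := by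
    intro g hg
    rw [slash_zero]
    exact funext (hinv g hg)
  have hb := bdd_slash hs hinf (by rw [slash_zero]; exact h0)
  let f : ModularForm ((Gamma0 11).map (mapGL ℝ)) 0 :=
    { toFun := G
      slash_action_eq' := by
        rintro _ ⟨g, hg, rfl⟩
        exact hs g hg
      holo' := hG
      bdd_at_cusps' := by
        intro c hc
        rw [Subgroup.IsArithmetic.isCusp_iff_isCusp_SL2Z] at hc
        rw [OnePoint.isBoundedAt_iff_forall_SL2Z hc]
        intro g _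
        exact hb g }
  obtain ⟨c, hc⟩ := ModularForm.eq_const_of_weight_zero f
  exact ⟨c, fun z => congrFun hc z⟩

/-- the same with the Fricke involution `W z = -1/(11 z)` in place of `S` -/
theorem zero_of_W (G : ℍ → ℂ) (hG : MDiff G)
    (hinv : ∀ g ∈ Gamma0 11, ∀ z : ℍ, G (g • z) = G z)
    (hinf : IsBoundedAtImInfty G) (W : ℍ → ℍ) (hW : ∀ z : ℍ, (W z : ℂ) = -1 / (11 * z))
    (h0 : IsBoundedAtImInfty fun z : ℍ => G (W z)) :
    ∃ c, ∀ z, G z = c := by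
  refine zero_of G hG hinv hinf ?_
  have him : ∀ z : ℍ, ((z : ℂ) / 11).im = z.im / 11 := by
    intro z
    rw [show ((z : ℂ) / 11) = (z : ℂ) / (11 : ℝ) by norm_num, Complex.div_ofReal_im]
    rfl
  let d : ℍ → ℍ := fun z => ⟨z / 11, by rw [him]; exact div_pos z.2 (by norm_num)⟩
  have hd : ∀ z : ℍ, (d z).im = z.im / 11 := fun z => him z
  have hS : ∀ z : ℍ, ModularGroup.S • z = W (d z) := by
    intro z
    apply UpperHalfPlane.ext
    rw [hW, UpperHalfPlane.modular_S_smul]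
    show (-(z : ℂ))⁻¹ = -1 / (11 * (z / 11))
    rw [mul_div_cancel₀ _ (by norm_num : (11 : ℂ) ≠ 0), neg_div, one_div, inv_neg]
  have ht : Tendsto d atImInfty atImInfty := by
    rw [UpperHalfPlane.atImInfty, tendsto_comap_iff]
    have : UpperHalfPlane.im ∘ d = fun z => UpperHalfPlane.im z / 11 := funext hd
    rw [this]
    exact Tendsto.atTop_div_const (by norm_num) tendsto_comap
  have := h0.comp_tendsto ht
  refine this.congr_left ?_
  intro z
  show G (W (d z)) = G (ModularGroup.S • z)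
  rw [hS]

/-- A holomorphic `Γ₀(11)`-invariant function which is bounded at `i∞` and is an eigenfunction of
the Fricke involution is constant. -/
theorem const_of_eigen_W (G : ℍ → ℂ) (hG : MDiff G)
    (hinv : ∀ g ∈ Gamma0 11, ∀ z : ℍ, G (g • z) = G z)
    (hinf : IsBoundedAtImInfty G) (W : ℍ → ℍ) (hW : ∀ z : ℍ, (W z : ℂ) = -1 / (11 * z))
    (e : ℂ) (he : ∀ z, G (W z) = e * G z) :
    ∃ c, ∀ z, G z = c := by
  refine zero_of_W G hG hinv hinf W hW ?_
  refine ((hinf.const_mul_left e).congr_left ?_)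
  intro z
  exact (he z).symm

/-- ... and it vanishes if it tends to `0` at `i∞`. -/
theorem zero_of_eigen_W (G : ℍ → ℂ) (hG : MDiff G)
    (hinv : ∀ g ∈ Gamma0 11, ∀ z : ℍ, G (g • z) = G z)
    (hinf : IsZeroAtImInfty G) (W : ℍ → ℍ) (hW : ∀ z : ℍ, (W z : ℂ) = -1 / (11 * z))
    (e : ℂ) (he : ∀ z, G (W z) = e * G z) (z : ℍ) : G z = 0 := by
  obtain ⟨c, hc⟩ := const_of_eigen_W G hG hinv hinf.isBoundedAtImInfty W hW e he
  have h1 : Tendsto G atImInfty (𝓝 0) := hinf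
  have h2 : G = fun _ => c := funext hc
  rw [h2] at h1
  rw [hc z]
  exact tendsto_nhds_unique tendsto_const_nhds h1

/-! ### Periods -/

theorem slash_T_zpow_apply (f : ℍ → ℂ) (k n : ℤ) (z : ℍ) :
    (f ∣[k] (ModularGroup.T ^ n)) z = f ((n : ℝ) +ᵥ z) := by
  rw [SL_slash_apply, UpperHalfPlane.modular_T_zpow_smul, ModularGroup.denom_apply]
  simp [ModularGroup.coe_T_zpow]

theorem periodic_of {f : ℍ → ℂ} {h : ℝ} (hf : ∀ z : ℍ, f (h +ᵥ z) = f z) :
    Function.Periodic (f ∘ ofComplex) h := by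
  intro w
  by_cases hw : 0 < w.im
  · have h1 : 0 < (w + h).im := by simpa using hw
    simp only [Function.comp_apply, ofComplex_apply_of_im_pos h1, ofComplex_apply_of_im_pos hw]
    rw [← hf ⟨w, hw⟩]
    congr 1
    ext
    simp [add_comm]
  · have h1 : (w + h).im ≤ 0 := by simpa using not_lt.mp hw
    simp [ofComplex_apply_of_im_nonpos h1, ofComplex_apply_of_im_nonpos (not_lt.mp hw)]

theorem per_one {f : ℍ → ℂ} {k : ℤ} (hf : ∀ g ∈ Gamma0 11, f ∣[k] g = f) (z : ℍ) :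
    f ((1 : ℝ) +ᵥ z) = f z := by
  have h1 : ModularGroup.T ^ (1 : ℤ) ∈ Gamma0 11 := by
    rw [Gamma0_mem, ModularGroup.coe_T_zpow]; simp
  have := slash_T_zpow_apply f k 1 z
  rw [hf _ h1] at this
  simpa using this.symm

theorem STS_ten (j : ℤ) :
    ((ModularGroup.S * ModularGroup.T ^ j * ModularGroup.S⁻¹ : SL(2, ℤ)) 1 0 : ℤ) = -j := by
  simp [Matrix.mul_apply, Fin.sum_univ_two, ModularGroup.coe_T_zpow, ModularGroup.coe_S,
    Matrix.adjugate_fin_two]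

theorem per_eleven {f : ℍ → ℂ} {k : ℤ} (hf : ∀ g ∈ Gamma0 11, f ∣[k] g = f) (z : ℍ) :
    (f ∣[k] ModularGroup.S) ((11 : ℝ) +ᵥ z) = (f ∣[k] ModularGroup.S) z := by
  have h1 : ModularGroup.S * ModularGroup.T ^ (11 : ℤ) * ModularGroup.S⁻¹ ∈ Gamma0 11 := by
    rw [Gamma0_mem, STS_ten]
    decide
  have h2 : (f ∣[k] ModularGroup.S) ∣[k] (ModularGroup.T ^ (11 : ℤ)) = f ∣[k] ModularGroup.S := by
    rw [← SlashAction.slash_mul]
    conv_rhs => rw [← hf _ h1]
    rw [← SlashAction.slash_mul]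
    congr 1
    group
  have := slash_T_zpow_apply (f ∣[k] ModularGroup.S) k 11 z
  rw [h2] at this
  simpa using this.symm

/-! ### Decay of cusp forms at both cusps -/

theorem decay_inf (h : CuspForm ((Gamma0 11).map (mapGL ℝ)) 2) :
    (h : ℍ → ℂ) =O[atImInfty] fun τ => Real.exp (-2 * π * τ.im) := by
  have h1 : (1 : ℝ) ∈ ((Gamma0 11).map (mapGL ℝ) : Subgroup (GL (Fin 2) ℝ)).strictPeriods := by
    simp
  simpa using CuspFormClass.exp_decay_atImInfty (h := 1) h one_pos h1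

theorem slash_of (h : CuspForm ((Gamma0 11).map (mapGL ℝ)) 2) (g : SL(2, ℤ)) (hg : g ∈ Gamma0 11) :
    (h : ℍ → ℂ) ∣[(2 : ℤ)] g = h :=
  SlashInvariantFormClass.slash_action_eq h _ ⟨g, hg, rfl⟩

theorem decay_zero (h : CuspForm ((Gamma0 11).map (mapGL ℝ)) 2) :
    ((h : ℍ → ℂ) ∣[(2 : ℤ)] ModularGroup.S) =O[atImInfty]
      fun τ => Real.exp (-2 * π * τ.im / 11) := by
  have hz : IsZeroAtImInfty ((h : ℍ → ℂ) ∣[(2 : ℤ)] ModularGroup.S) :=
    CuspFormClass.zero_at_infty_slash h _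
  refine UpperHalfPlane.IsZeroAtImInfty.exp_decay_atImInfty (h := 11) hz (by norm_num)
    (periodic_of (per_eleven (slash_of h))) ?_ (hz.isBoundedAtImInfty)
  exact (CuspFormClass.holo h).slash 2 _

/-! ### Lower bounds for `F` -/

theorem eta_lower : ∃ C > 0, ∃ A > 0, ∀ z : ℂ, A ≤ z.im →
    Real.exp (-2 * π * z.im) ≤ C * ‖ModularForm.eta z‖ ^ 24 := by
  obtain ⟨C, hC⟩ := ModularForm.exp_isBigO_discriminant.bound
  rw [UpperHalfPlane.atImInfty_basis.eventually_iff] at hC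
  obtain ⟨A, -, hA⟩ := hC
  refine ⟨max C 1, by positivity, max A 1, by positivity, fun z hz => ?_⟩
  have hz1 : 1 ≤ z.im := le_trans (le_max_right _ _) hz
  have hzA : A ≤ z.im := le_trans (le_max_left _ _) hz
  have hz0 : 0 < z.im := by linarith
  have a1 : ‖Real.exp (-2 * π * z.im)‖ ≤ C * ‖ModularForm.eta z ^ 24‖ :=
    hA (x := ⟨z, hz0⟩) hzA
  rw [Real.norm_eq_abs, abs_of_pos (Real.exp_pos _), norm_pow] at a1
  refine a1.trans ?_
  gcongr
  exact le_max_left _ _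

theorem F_lower : ∃ C > 0, ∃ A > 0, ∀ z : ℂ, A ≤ z.im →
    Real.exp (-2 * π * z.im) ≤ C * ‖Fc z‖ := by
  obtain ⟨C, hC, A, hA0, hA⟩ := eta_lower
  refine ⟨max C 1, by positivity, A, hA0, fun z hz => ?_⟩
  have h11 : (11 * z).im = 11 * z.im := by simp
  have a1 := hA z hz
  have a2 := hA (11 * z) (by rw [h11]; linarith)
  rw [h11] at a2
  rw [← pow_le_pow_iff_left₀ (Real.exp_pos _).le (by positivity) (n := 12) (by norm_num)]
  have e1 : Real.exp (-2 * π * z.im) ^ 12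
      = Real.exp (-2 * π * z.im) * Real.exp (-2 * π * (11 * z.im)) := by
    rw [← Real.exp_nat_mul, ← Real.exp_add]
    congr 1
    push_cast
    ring
  have e2 : (max C 1 * ‖Fc z‖) ^ 12 = (max C 1) ^ 12 * (‖ModularForm.eta z‖ ^ 24 *
      ‖ModularForm.eta (11 * z)‖ ^ 24) := by
    rw [Fc, norm_mul, norm_pow, norm_pow]
    ring
  rw [e1, e2]
  calc Real.exp (-2 * π * z.im) * Real.exp (-2 * π * (11 * z.im))
      ≤ (C * ‖ModularForm.eta z‖ ^ 24) * (C * ‖ModularForm.eta (11 * z)‖ ^ 24) := by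
        gcongr
    _ = C ^ 2 * (‖ModularForm.eta z‖ ^ 24 * ‖ModularForm.eta (11 * z)‖ ^ 24) := by ring
    _ ≤ _ := by
        gcongr
        calc C ^ 2 ≤ (max C 1) ^ 2 := by gcongr; exact le_max_left _ _
          _ ≤ (max C 1) ^ 12 := pow_le_pow_right₀ (le_max_right _ _) (by norm_num)

theorem exp_isBigO_F : (fun τ : ℍ => Real.exp (-2 * π * τ.im)) =O[atImInfty] F := by
  obtain ⟨C, hC, A, hA0, hA⟩ := F_lower
  refine IsBigO.of_bound C ?_
  rw [UpperHalfPlane.atImInfty_basis.eventually_iff]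
  refine ⟨A, trivial, fun τ hτ => ?_⟩
  rw [Real.norm_eq_abs, abs_of_pos (Real.exp_pos _)]
  exact hA τ hτ

theorem F_slash_S (τ : ℍ) : (F ∣[(2 : ℤ)] ModularGroup.S) τ = -(1 / 11) * Fc (τ / 11) := by
  rw [SlashInvariantForm.slash_S_apply]
  have h := Fc_S τ.2
  have h0 : (τ : ℂ) ≠ 0 := τ.ne_zero
  have h1 : F (.mk _ τ.im_inv_neg_coe_pos) = Fc (-1 / τ) := by
    rw [F_eq]
    congr 1
    show (-(τ : ℂ))⁻¹ = -1 / τ
    rw [neg_div, one_div, inv_neg]
  rw [h1, show (τ : ℂ) ^ (-(2 : ℤ)) = ((τ : ℂ) ^ 2)⁻¹ by rw [zpow_neg]; norm_cast]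
  rw [show ((τ : ℍ) : ℂ) = (τ : ℂ) from rfl] at h
  rw [h]
  field_simp

theorem exp_isBigO_FS : (fun τ : ℍ => Real.exp (-2 * π * τ.im / 11)) =O[atImInfty]
    (F ∣[(2 : ℤ)] ModularGroup.S) := by
  obtain ⟨C, hC, A, hA0, hA⟩ := F_lower
  refine IsBigO.of_bound (11 * C) ?_
  rw [UpperHalfPlane.atImInfty_basis.eventually_iff]
  refine ⟨11 * A, trivial, fun τ hτ => ?_⟩
  rw [Real.norm_eq_abs, abs_of_pos (Real.exp_pos _), F_slash_S]
  have him : ((τ : ℂ) / 11).im = τ.im / 11 := by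
    rw [show ((τ : ℂ) / 11) = (τ : ℂ) / (11 : ℝ) by norm_num, Complex.div_ofReal_im]
    rfl
  have h1 := hA (τ / 11) (by
    rw [him]
    have : 11 * A ≤ τ.im := hτ
    linarith)
  rw [him] at h1
  rw [norm_mul]
  have h2 : ‖(-(1 / 11) : ℂ)‖ = 1 / 11 := by
    rw [norm_neg]; norm_num
  rw [h2]
  calc Real.exp (-2 * π * τ.im / 11) = Real.exp (-2 * π * (τ.im / 11)) := by congr 1; ring
    _ ≤ C * ‖Fc (τ / 11)‖ := h1
    _ = _ := by ring

/-! ### `F` as a function on `ℍ`: holomorphy -/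

theorem F_mdiff : MDiff F := by
  rw [UpperHalfPlane.mdifferentiable_iff]
  intro z hz
  have hz' : 0 < z.im := hz
  refine (DifferentiableAt.congr_of_eventuallyEq (Fc_diff hz') ?_).differentiableWithinAt
  filter_upwards [isOpen_upperHalfPlaneSet.mem_nhds hz] with w hw
  have hw' : 0 < w.im := hw
  simp [F_eq, ofComplex_apply_of_im_pos hw']

/-- quotients by a nonvanishing holomorphic function are holomorphic -/
theorem mdiff_div {f g : ℍ → ℂ} (hf : MDiff f) (hg : MDiff g) (h0 : ∀ z, g z ≠ 0) :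
    MDiff (fun z => f z / g z) := by
  rw [UpperHalfPlane.mdifferentiable_iff] at hf hg ⊢
  exact hf.div hg fun z _ => h0 _

theorem bdd_div {f g : ℍ → ℂ} (h : f =O[atImInfty] g) (h0 : ∀ z, g z ≠ 0) :
    IsBoundedAtImInfty (fun z => f z / g z) := by
  obtain ⟨C, hC⟩ := h.bound
  refine IsBigO.of_bound C ?_
  filter_upwards [hC] with z hz
  rw [norm_div, div_le_iff₀ (norm_pos_iff.mpr (h0 z))]
  simpa using hz

/-- General form: if `h` is `Γ₀(11)`-invariant of weight `k`, holomorphic and `O(g)` at both cusps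
where `g` is a nonvanishing holomorphic invariant function of weight `k`, then `h = c g`. -/
theorem eq_smul_of {k : ℤ} {h g : ℍ → ℂ} (hh : MDiff h) (hg : MDiff g) (g0 : ∀ z, g z ≠ 0)
    (hi : ∀ γ ∈ Gamma0 11, h ∣[k] γ = h) (gi : ∀ γ ∈ Gamma0 11, g ∣[k] γ = g)
    (hO : h =O[atImInfty] g)
    (hOS : (h ∣[k] ModularGroup.S) =O[atImInfty] (g ∣[k] ModularGroup.S)) :
    ∃ c : ℂ, ∀ z : ℍ, h z = c * g z := by
  have key : ∀ (γ : SL(2, ℤ)) (z : ℍ), h (γ • z) / g (γ • z)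
      = (h ∣[k] γ) z / (g ∣[k] γ) z := by
    intro γ z
    rw [SL_slash_apply, SL_slash_apply]
    have hd : (denom γ z) ^ (-k) ≠ 0 := zpow_ne_zero _ (denom_ne_zero γ z)
    exact (mul_div_mul_right _ _ hd).symm
  have gS : ∀ z, (g ∣[k] ModularGroup.S) z ≠ 0 := by
    intro z
    rw [SL_slash_apply]
    exact mul_ne_zero (g0 _) (zpow_ne_zero _ (denom_ne_zero _ z))
  obtain ⟨c, hc⟩ := zero_of (fun z => h z / g z) (mdiff_div hh hg g0)
    (fun γ hγ z => by
      show h (γ • z) / g (γ • z) = h z / g z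
      rw [key, hi γ hγ, gi γ hγ])
    (bdd_div hO g0)
    (by
      have := bdd_div hOS gS
      refine this.congr_left ?_
      intro z
      exact (key ModularGroup.S z).symm)
  exact ⟨c, fun z => by rw [← hc z, div_mul_cancel₀ _ (g0 z)]⟩

/-! ### The theorem -/

/-- Every weight-two cusp form on `Γ₀(11)` is a multiple of `F = η(z)²η(11z)²`. -/
theorem dim1 (h : CuspForm ((Gamma0 11).map (mapGL ℝ)) 2) : ∃ c : ℂ, ∀ z : ℍ, h z = c * F z :=
  eq_smul_of (CuspFormClass.holo h) F_mdiff F_ne (slash_of h) F_slash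
    ((decay_inf h).trans exp_isBigO_F) ((decay_zero h).trans exp_isBigO_FS)

/-- The same with the coercion `(Gamma0 11 : Subgroup (GL (Fin 2) ℝ))`. -/
theorem dim1' (h : CuspForm (Gamma0 11) 2) : ∃ c : ℂ, (h : ℍ → ℂ) = c • F := by
  obtain ⟨c, hc⟩ := dim1 h
  exact ⟨c, funext fun z => by rw [hc z]; rfl⟩

end Vale.Agent.P004H.H833
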