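import Mathlib

/-!
# P004 / X_0(11): the multiplier of `η²`

`e z = η(z)²` is a form of weight one for `SL(2,ℤ)` with a character of order 12,
`χ γ = ζ₃^(A γ) * (-i)^(B γ)`, `A γ ∈ ℤ/3`, `B γ ∈ ℤ/4` explicit polynomials in the entries.
-/

set_option linter.all false

open Complex Function ModularForm MatrixGroups Filter Topology
open UpperHalfPlane hiding I
open scoped Real ModularForm

namespace Vale.Agent.P004H.H833

/-- the square of the eta function -/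
noncomputable def e2 (z : ℍ) : ℂ := ModularForm.eta (z : ℂ) ^ 2

theorem e2_ne_zero (z : ℍ) : e2 z ≠ 0 := pow_ne_zero _ (ModularForm.eta_ne_zero z.2)

/-- the exponent mod 3 -/
def A3 (a b c d : ZMod 3) : ZMod 3 := (1 - c ^ 2) * (b * d) + c * (a + d)

/-- the exponent mod 4 -/
def B4 (a b c d : ZMod 4) : ZMod 4 :=
  (1 - c ^ 2) * (b * d - (c - 1) * d + c - 1) + c * (a + d + 1)

def eA (γ : SL(2, ℤ)) : ZMod 3 := A3 (γ 0 0) (γ 0 1) (γ 1 0) (γ 1 1)
def eB (γ : SL(2, ℤ)) : ZMod 4 := B4 (γ 0 0) (γ 0 1) (γ 1 0) (γ 1 1)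

theorem A3_T : ∀ a b c d : ZMod 3, a * d - b * c = 1 → A3 a (a + b) c (c + d) = A3 a b c d + 1 := by
  decide
theorem A3_S : ∀ a b c d : ZMod 3, a * d - b * c = 1 → A3 b (-a) d (-c) = A3 a b c d := by
  decide
theorem B4_T : ∀ a b c d : ZMod 4, a * d - b * c = 1 → B4 a (a + b) c (c + d) = B4 a b c d + 1 := by
  decide
theorem B4_S : ∀ a b c d : ZMod 4, a * d - b * c = 1 → B4 b (-a) d (-c) = B4 a b c d + 1 := by
  decide
theorem A3_conj : ∀ a b c d : ZMod 3, a * d - b * c = 1 → A3 a (-b) (-c) d = - A3 a b c d := by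
  decide
theorem B4_conj : ∀ a b c d : ZMod 4, a * d - b * c = 1 → B4 a (-b) (-c) d = - B4 a b c d := by
  decide

/-- `k`-th power of `exp (2πi/3)` -/
noncomputable def z3 : ZMod 3 → ℂ := fun k => ZMod.stdAddChar k
/-- `k`-th power of `-i` -/
noncomputable def z4 : ZMod 4 → ℂ := fun k => ZMod.stdAddChar (-k)


theorem z3_add (a b : ZMod 3) : z3 (a + b) = z3 a * z3 b := AddChar.map_add_eq_mul _ _ _
theorem z4_add (a b : ZMod 4) : z4 (a + b) = z4 a * z4 b := by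
  unfold z4
  rw [neg_add]
  exact AddChar.map_add_eq_mul _ _ _
theorem z3_zero : z3 0 = 1 := AddChar.map_zero_eq_one _
theorem z4_zero : z4 0 = 1 := by
  unfold z4
  rw [neg_zero]
  exact AddChar.map_zero_eq_one _

theorem z3_ne (a : ZMod 3) : z3 a ≠ 0 := by
  intro h
  have := z3_add a (-a)
  rw [add_neg_cancel, z3_zero, h, zero_mul] at this
  exact one_ne_zero this
theorem z4_ne (a : ZMod 4) : z4 a ≠ 0 := by
  intro h
  have := z4_add a (-a)
  rw [add_neg_cancel, z4_zero, h, zero_mul] at this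
  exact one_ne_zero this

theorem z4_one : z4 1 = -I := by
  have h : z4 1 = ZMod.stdAddChar (((-1 : ℤ)) : ZMod 4) := by
    unfold z4
    norm_num
  rw [h, ZMod.stdAddChar_coe]
  have : 2 * (π : ℂ) * I * ((-1 : ℤ) : ℂ) / ((4 : ℕ) : ℂ) = -(π / 2 * I) := by
    push_cast
    ring
  rw [this, Complex.exp_neg, Complex.exp_pi_div_two_mul_I, Complex.inv_I]

theorem z3_one_mul : z3 1 * z4 1 = cexp (2 * π * I / 12) := by
  have h : z3 1 = ZMod.stdAddChar (((1 : ℤ)) : ZMod 3) := by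
    unfold z3
    norm_num
  have h4 : z4 1 = ZMod.stdAddChar (((-1 : ℤ)) : ZMod 4) := by
    unfold z4
    norm_num
  rw [h, h4, ZMod.stdAddChar_coe, ZMod.stdAddChar_coe, ← Complex.exp_add]
  congr 1
  push_cast
  ring

theorem eta_add_one (z : ℂ) : ModularForm.eta (z + 1) = cexp (2 * π * I / 24) * ModularForm.eta z := by
  have h : ∀ n, ModularForm.eta_q n (z + 1) = ModularForm.eta_q n z := by
    intro n
    rw [ModularForm.eta_q_eq_cexp, ModularForm.eta_q_eq_cexp]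
    have : 2 * (π : ℂ) * I * (n + 1) * (z + 1) = 2 * π * I * (n + 1) * z + ((n + 1 : ℕ) : ℂ) * (2 * π * I) := by
      push_cast
      ring
    rw [this, Complex.exp_add, Complex.exp_nat_mul_two_pi_mul_I, mul_one]
  unfold ModularForm.eta
  simp_rw [h]
  rw [← mul_assoc]
  congr 1
  unfold Function.Periodic.qParam
  rw [← Complex.exp_add]
  congr 1
  push_cast
  ring

theorem eta_sq_S (z : ℍ) : ModularForm.eta (-1 / (z : ℂ)) ^ 2 = -I * z * ModularForm.eta z ^ 2 := by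
  have h := ModularForm.eta_comp_eq_csqrt_I_inv z.2
  have h1 : ModularForm.eta (-1 / (z : ℂ)) = (sqrt I)⁻¹ * (sqrt z * ModularForm.eta z) := by
    simpa using h
  have h2 : ∀ w : ℂ, Complex.sqrt w ^ 2 = w := by
    intro w
    unfold Complex.sqrt
    have := Complex.cpow_nat_inv_pow w (n := 2) two_ne_zero
    simpa using this
  rw [h1, mul_pow, inv_pow, mul_pow, h2, h2, Complex.inv_I]
  ring

theorem e2_S : (e2 ∣[(1 : ℤ)] ModularGroup.S) = (-I) • e2 := by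
  ext z
  rw [SL_slash_apply, UpperHalfPlane.modular_S_smul, ModularGroup.denom_S]
  have hz : (z : ℂ) ≠ 0 := ne_zero z
  have h : ((-(z : ℂ))⁻¹) = -1 / (z : ℂ) := by
    field_simp
  simp only [e2, Pi.smul_apply, smul_eq_mul]
  have h2 : ModularForm.eta (-(z : ℂ))⁻¹ ^ 2 = -I * z * ModularForm.eta z ^ 2 := by
    rw [h, eta_sq_S]
  show ModularForm.eta (-(z : ℂ))⁻¹ ^ 2 * (z : ℂ) ^ (-1 : ℤ) = _
  rw [h2, zpow_neg, zpow_one]
  field_simp

theorem e2_T : (e2 ∣[(1 : ℤ)] ModularGroup.T) = cexp (2 * π * I / 12) • e2 := by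
  ext z
  rw [SL_slash_apply, UpperHalfPlane.modular_T_smul]
  have hd : denom ModularGroup.T z = 1 := by
    rw [ModularGroup.denom_apply, ModularGroup.coe_T]
    simp
  rw [hd, one_zpow, mul_one]
  simp only [e2, Pi.smul_apply, smul_eq_mul]
  have h : (((1 : ℝ) +ᵥ z : ℍ) : ℂ) = (z : ℂ) + 1 := by
    simp [add_comm]
  rw [h, eta_add_one, mul_pow, ← Complex.exp_nat_mul]
  congr 2
  push_cast
  ring

theorem det_eq (γ : SL(2, ℤ)) : γ 0 0 * γ 1 1 - γ 0 1 * γ 1 0 = 1 := by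
  have := γ.det_coe
  rw [Matrix.det_fin_two] at this
  exact this

theorem det3 (γ : SL(2, ℤ)) : ((γ 0 0 : ℤ) : ZMod 3) * (γ 1 1 : ℤ) - (γ 0 1 : ℤ) * (γ 1 0 : ℤ) = 1 := by
  have := congrArg (Int.cast : ℤ → ZMod 3) (det_eq γ)
  push_cast at this
  exact this

theorem det4 (γ : SL(2, ℤ)) : ((γ 0 0 : ℤ) : ZMod 4) * (γ 1 1 : ℤ) - (γ 0 1 : ℤ) * (γ 1 0 : ℤ) = 1 := by
  have := congrArg (Int.cast : ℤ → ZMod 4) (det_eq γ)
  push_cast at this
  exact this

/-- the character -/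
noncomputable def chi (γ : SL(2, ℤ)) : ℂ := z3 (eA γ) * z4 (eB γ)

theorem chi_ne (γ : SL(2, ℤ)) : chi γ ≠ 0 := mul_ne_zero (z3_ne _) (z4_ne _)

theorem chi_one : chi 1 = 1 := by
  have h1 : eA 1 = 0 := by
    simp only [eA]
    decide
  have h2 : eB 1 = 0 := by
    simp only [eB]
    decide
  rw [chi, h1, h2, z3_zero, z4_zero, one_mul]

theorem chi_mul_T (γ : SL(2, ℤ)) : chi (γ * ModularGroup.T) = chi γ * cexp (2 * π * I / 12) := by
  have e00 : (γ * ModularGroup.T) 0 0 = γ 0 0 := by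
    rw [Matrix.SpecialLinearGroup.coe_mul, ModularGroup.coe_T, Matrix.mul_apply, Fin.sum_univ_two]
    simp
  have e01 : (γ * ModularGroup.T) 0 1 = γ 0 0 + γ 0 1 := by
    rw [Matrix.SpecialLinearGroup.coe_mul, ModularGroup.coe_T, Matrix.mul_apply, Fin.sum_univ_two]
    simp
  have e10 : (γ * ModularGroup.T) 1 0 = γ 1 0 := by
    rw [Matrix.SpecialLinearGroup.coe_mul, ModularGroup.coe_T, Matrix.mul_apply, Fin.sum_univ_two]
    simp
  have e11 : (γ * ModularGroup.T) 1 1 = γ 1 0 + γ 1 1 := by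
    rw [Matrix.SpecialLinearGroup.coe_mul, ModularGroup.coe_T, Matrix.mul_apply, Fin.sum_univ_two]
    simp
  have h1 : eA (γ * ModularGroup.T) = eA γ + 1 := by
    unfold eA
    rw [e00, e01, e10, e11]
    push_cast
    exact A3_T _ _ _ _ (det3 γ)
  have h2 : eB (γ * ModularGroup.T) = eB γ + 1 := by
    unfold eB
    rw [e00, e01, e10, e11]
    push_cast
    exact B4_T _ _ _ _ (det4 γ)
  rw [chi, h1, h2, z3_add, z4_add, ← z3_one_mul, chi]
  ring

theorem chi_mul_S (γ : SL(2, ℤ)) : chi (γ * ModularGroup.S) = chi γ * (-I) := by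
  have e00 : (γ * ModularGroup.S) 0 0 = γ 0 1 := by
    rw [Matrix.SpecialLinearGroup.coe_mul, ModularGroup.coe_S, Matrix.mul_apply, Fin.sum_univ_two]
    simp
  have e01 : (γ * ModularGroup.S) 0 1 = - γ 0 0 := by
    rw [Matrix.SpecialLinearGroup.coe_mul, ModularGroup.coe_S, Matrix.mul_apply, Fin.sum_univ_two]
    simp
  have e10 : (γ * ModularGroup.S) 1 0 = γ 1 1 := by
    rw [Matrix.SpecialLinearGroup.coe_mul, ModularGroup.coe_S, Matrix.mul_apply, Fin.sum_univ_two]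
    simp
  have e11 : (γ * ModularGroup.S) 1 1 = - γ 1 0 := by
    rw [Matrix.SpecialLinearGroup.coe_mul, ModularGroup.coe_S, Matrix.mul_apply, Fin.sum_univ_two]
    simp
  have h1 : eA (γ * ModularGroup.S) = eA γ := by
    unfold eA
    rw [e00, e01, e10, e11]
    push_cast
    exact A3_S _ _ _ _ (det3 γ)
  have h2 : eB (γ * ModularGroup.S) = eB γ + 1 := by
    unfold eB
    rw [e00, e01, e10, e11]
    push_cast
    exact B4_S _ _ _ _ (det4 γ)
  rw [chi, h1, h2, z4_add, z4_one, chi]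
  ring

/-- **`η²` is a form of weight one with character `chi`** -/
theorem e2_slash (γ : SL(2, ℤ)) : (e2 ∣[(1 : ℤ)] γ) = chi γ • e2 := by
  have hγ : γ ∈ Subgroup.closure {ModularGroup.S, ModularGroup.T} := by
    rw [SpecialLinearGroup.SL2Z_generators]
    trivial
  have hs : ∀ (c : ℂ) (f : ℍ → ℂ) (g : SL(2, ℤ)), ((c • f) ∣[(1 : ℤ)] g) = c • (f ∣[(1 : ℤ)] g) :=
    fun c f g => SL_smul_slash 1 g f c
  have key : ∀ (δ x : SL(2, ℤ)) (c : ℂ), c ≠ 0 → (e2 ∣[(1 : ℤ)] x) = c • e2 →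
      chi (δ * x) = chi δ * c → (e2 ∣[(1 : ℤ)] δ) = chi δ • e2 →
      (e2 ∣[(1 : ℤ)] (δ * x)) = chi (δ * x) • e2 := by
    intro δ x c hc h1 h2 h3
    rw [SlashAction.slash_mul, h3, hs, h1, h2, smul_smul]
  have key' : ∀ (δ x : SL(2, ℤ)) (c : ℂ), c ≠ 0 → (e2 ∣[(1 : ℤ)] x) = c • e2 →
      (∀ δ, chi (δ * x) = chi δ * c) → (e2 ∣[(1 : ℤ)] δ) = chi δ • e2 →
      (e2 ∣[(1 : ℤ)] (δ * x⁻¹)) = chi (δ * x⁻¹) • e2 := by
    intro δ x c hc h1 h2 h3
    have h4 : (e2 ∣[(1 : ℤ)] x⁻¹) = c⁻¹ • e2 := by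
      have h6 : ((e2 ∣[(1 : ℤ)] x) ∣[(1 : ℤ)] x⁻¹) = e2 := by
        rw [← SlashAction.slash_mul, mul_inv_cancel, SlashAction.slash_one]
      rw [h1, hs] at h6
      calc (e2 ∣[(1 : ℤ)] x⁻¹) = c⁻¹ • (c • (e2 ∣[(1 : ℤ)] x⁻¹)) := by
            rw [smul_smul, inv_mul_cancel₀ hc, one_smul]
        _ = c⁻¹ • e2 := by rw [h6]
    have h5 : chi (δ * x⁻¹) = chi δ * c⁻¹ := by
      have := h2 (δ * x⁻¹)
      rw [inv_mul_cancel_right] at this
      rw [this, mul_assoc, mul_inv_cancel₀ hc, mul_one]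
    rw [SlashAction.slash_mul, h3, hs, h4, h5, smul_smul]
  induction hγ using Subgroup.closure_induction_right with
  | one => rw [SlashAction.slash_one, chi_one, one_smul]
  | mul_right δ x hδ hx ih =>
    rcases hx with rfl | rfl
    · exact key _ _ (-I) (neg_ne_zero.2 Complex.I_ne_zero) e2_S (chi_mul_S δ) ih
    · exact key _ _ _ (Complex.exp_ne_zero _) e2_T (chi_mul_T δ) ih
  | mul_inv_cancel δ x hδ hx ih =>
    rcases hx with rfl | rfl
    · exact key' _ _ (-I) (neg_ne_zero.2 Complex.I_ne_zero) e2_S chi_mul_S ih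
    · exact key' _ _ _ (Complex.exp_ne_zero _) e2_T chi_mul_T ih

theorem e2_smul (γ : SL(2, ℤ)) (z : ℍ) : e2 (γ • z) = chi γ * denom γ z * e2 z := by
  have h := congrFun (e2_slash γ) z
  rw [SL_slash_apply, zpow_neg, zpow_one] at h
  have hd : denom γ z ≠ 0 := denom_ne_zero γ z
  simp only [Pi.smul_apply, smul_eq_mul] at h
  field_simp at h
  rw [h]
  ring

/-- multiplication by 11 on the upper half plane -/
def m11 (z : ℍ) : ℍ := ⟨11 * (z : ℂ), by
  have := z.im_pos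
  simp
  exact this⟩

@[simp] theorem coe_m11 (z : ℍ) : ((m11 z : ℍ) : ℂ) = 11 * (z : ℂ) := rfl

/-- `[a, 11 b; c / 11, d]` -/
def conj11 (γ : SL(2, ℤ)) (c : ℤ) (hc : γ 1 0 = 11 * c) : SL(2, ℤ) :=
  ⟨!![γ 0 0, 11 * γ 0 1; c, γ 1 1], by
    rw [Matrix.det_fin_two]
    have := det_eq γ
    rw [hc] at this
    simp
    linarith⟩

theorem conj11_smul (γ : SL(2, ℤ)) (c : ℤ) (hc : γ 1 0 = 11 * c) (z : ℍ) :
    conj11 γ c hc • m11 z = m11 (γ • z) := by
  apply UpperHalfPlane.ext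
  have h1 : ((conj11 γ c hc) 0 0 : ℤ) = γ 0 0 := rfl
  have h2 : ((conj11 γ c hc) 0 1 : ℤ) = 11 * γ 0 1 := rfl
  have h3 : ((conj11 γ c hc) 1 0 : ℤ) = c := rfl
  have h4 : ((conj11 γ c hc) 1 1 : ℤ) = γ 1 1 := rfl
  rw [coe_m11, UpperHalfPlane.coe_specialLinearGroup_apply, UpperHalfPlane.coe_specialLinearGroup_apply]
  simp only [coe_m11, h1, h2, h3, h4, hc, algebraMap_int_eq, eq_intCast]
  push_cast
  rw [show (c : ℂ) * (11 * (z : ℂ)) = 11 * c * z by ring]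
  ring

theorem denom_conj11 (γ : SL(2, ℤ)) (c : ℤ) (hc : γ 1 0 = 11 * c) (z : ℍ) :
    denom (conj11 γ c hc) (m11 z) = denom γ z := by
  rw [ModularGroup.denom_apply, ModularGroup.denom_apply]
  have h3 : ((conj11 γ c hc) 1 0 : ℤ) = c := rfl
  have h4 : ((conj11 γ c hc) 1 1 : ℤ) = γ 1 1 := rfl
  rw [h3, h4, hc, coe_m11]
  push_cast
  ring

theorem chi_conj11 (γ : SL(2, ℤ)) (c : ℤ) (hc : γ 1 0 = 11 * c) :
    chi (conj11 γ c hc) * chi γ = 1 := by
  have h1 : eA (conj11 γ c hc) = - eA γ := by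
    have h := A3_conj _ _ _ _ (det3 γ)
    have e1 : (((conj11 γ c hc) 0 1 : ℤ) : ZMod 3) = - ((γ 0 1 : ℤ) : ZMod 3) := by
      have : ((conj11 γ c hc) 0 1 : ℤ) = 11 * γ 0 1 := rfl
      rw [this]
      push_cast
      rw [show (11 : ZMod 3) = -1 by decide]
      ring
    have e2 : (((conj11 γ c hc) 1 0 : ℤ) : ZMod 3) = - ((γ 1 0 : ℤ) : ZMod 3) := by
      have : ((conj11 γ c hc) 1 0 : ℤ) = c := rfl
      rw [this, hc]
      push_cast
      rw [show (11 : ZMod 3) = -1 by decide]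
      ring
    unfold eA
    rw [e1, e2]
    exact h
  have h2 : eB (conj11 γ c hc) = - eB γ := by
    have h := B4_conj _ _ _ _ (det4 γ)
    have e1 : (((conj11 γ c hc) 0 1 : ℤ) : ZMod 4) = - ((γ 0 1 : ℤ) : ZMod 4) := by
      have : ((conj11 γ c hc) 0 1 : ℤ) = 11 * γ 0 1 := rfl
      rw [this]
      push_cast
      rw [show (11 : ZMod 4) = -1 by decide]
      ring
    have e2 : (((conj11 γ c hc) 1 0 : ℤ) : ZMod 4) = - ((γ 1 0 : ℤ) : ZMod 4) := by
      have : ((conj11 γ c hc) 1 0 : ℤ) = c := rfl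
      rw [this, hc]
      push_cast
      rw [show (11 : ZMod 4) = -1 by decide]
      ring
    unfold eB
    rw [e1, e2]
    exact h
  rw [chi, chi, h1, h2, show z3 (-eA γ) * z4 (-eB γ) * (z3 (eA γ) * z4 (eB γ)) =
    (z3 (-eA γ) * z3 (eA γ)) * (z4 (-eB γ) * z4 (eB γ)) by ring, ← z3_add, ← z4_add,
    neg_add_cancel, neg_add_cancel, z3_zero, z4_zero, one_mul]

/-- **the form** `η(z)² η(11 z)²` -/
noncomputable def F (z : ℍ) : ℂ := ModularForm.eta (z : ℂ) ^ 2 * ModularForm.eta (11 * (z : ℂ)) ^ 2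

theorem F_eq (z : ℍ) : F z = e2 z * e2 (m11 z) := rfl

theorem F_ne_zero (z : ℍ) : F z ≠ 0 := mul_ne_zero (e2_ne_zero z) (e2_ne_zero (m11 z))

theorem F_smul (γ : SL(2, ℤ)) (hγ : γ ∈ CongruenceSubgroup.Gamma0 11) (z : ℍ) :
    F (γ • z) = denom γ z ^ 2 * F z := by
  rw [CongruenceSubgroup.Gamma0_mem] at hγ
  obtain ⟨c, hc⟩ := (ZMod.intCast_zmod_eq_zero_iff_dvd _ 11).1 hγ
  rw [F_eq, F_eq, ← conj11_smul γ c hc, e2_smul, e2_smul, denom_conj11]
  have := chi_conj11 γ c hc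
  linear_combination (denom γ z ^ 2 * e2 z * e2 (m11 z)) * this

/-- **`F` has weight 2 under `Γ₀(11)`** -/
theorem F_slash (γ : SL(2, ℤ)) (hγ : γ ∈ CongruenceSubgroup.Gamma0 11) :
    (F ∣[(2 : ℤ)] γ) = F := by
  ext z
  rw [SL_slash_apply, F_smul γ hγ, zpow_neg]
  have hd : denom γ z ≠ 0 := denom_ne_zero γ z
  have : (denom γ z : ℂ) ^ (2 : ℤ) = denom γ z ^ 2 := by norm_cast
  rw [this]
  field_simp

/-- **Fricke involution** -/
theorem F_W (z : ℂ) (hz : 0 < z.im) :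
    ModularForm.eta (-1 / (11 * z)) ^ 2 * ModularForm.eta (11 * (-1 / (11 * z))) ^ 2 =
      -11 * z ^ 2 * (ModularForm.eta z ^ 2 * ModularForm.eta (11 * z) ^ 2) := by
  have hz0 : z ≠ 0 := by
    rintro rfl
    simp at hz
  have h1 := eta_sq_S ⟨z, hz⟩
  have h2 := eta_sq_S (m11 ⟨z, hz⟩)
  rw [coe_m11] at h2
  have h3 : (11 : ℂ) * (-1 / (11 * z)) = -1 / z := by
    field_simp
  rw [h3]
  simp only at h1 h2
  rw [h1, h2]
  ring_nf
  rw [Complex.I_sq]
  ring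

end Vale.Agent.P004H.H833
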