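import Vale.Agent.P004H.H792.Cusp11

/-!
# The `SL(2,ℤ)`-invariant majorant of `|F|² y²`

Row R14-RS, P4 (helper86 #17207).
-/

open UpperHalfPlane hiding I
open Complex Real MatrixGroups ModularForm CongruenceSubgroup Filter
open scoped Topology

namespace Vale.Agent.P004H.H833

open Vale.Agent.P004H.H792 (F Fc F_eq F_slash F_ne Fc_ne Fc_W Fc_S Fc_diff F_slash_mob a qq norm_qq
  hasSum_Fc a_zero F_mdiff)

/-- the invariant density -/
noncomputable def G (z : ℍ) : ℝ := ‖F z‖ ^ 2 * z.im ^ 2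

theorem sh_pos (j : ℕ) (z : ℍ) : 0 < (((z : ℂ) + j) / 11).im := by
  rw [show (((z : ℂ) + j) / 11) = ((z : ℂ) + j) / (11 : ℝ) by norm_num, Complex.div_ofReal_im]
  have : (0 : ℝ) < z.im := z.2
  simpa using div_pos this (by norm_num : (0 : ℝ) < 11)

/-- `z ↦ (z + j) / 11` -/
noncomputable def sh (j : ℕ) (z : ℍ) : ℍ := ⟨((z : ℂ) + j) / 11, sh_pos j z⟩

theorem sh_coe (j : ℕ) (z : ℍ) : (sh j z : ℂ) = ((z : ℂ) + j) / 11 := rfl

theorem sh_im (j : ℕ) (z : ℍ) : (sh j z).im = z.im / 11 := by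
  show (((z : ℂ) + j) / 11).im = z.im / 11
  rw [show (((z : ℂ) + j) / 11) = ((z : ℂ) + j) / (11 : ℝ) by norm_num, Complex.div_ofReal_im]
  simp

noncomputable def H (z : ℍ) : ℝ := G z + ∑ j ∈ Finset.range 11, G (sh j z)

theorem G_nonneg (z : ℍ) : 0 ≤ G z := by unfold G; positivity

theorem G_pos (z : ℍ) : 0 < G z := by
  unfold G
  have h1 : 0 < ‖F z‖ := norm_pos_iff.mpr (F_ne z)
  have h2 : 0 < z.im := z.2
  positivity

theorem H_pos (z : ℍ) : 0 < H z :=
  add_pos_of_pos_of_nonneg (G_pos z) (Finset.sum_nonneg fun _ _ => G_nonneg _)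

/-- `G` is `Γ₀(11)`-invariant -/
theorem G_inv (g : SL(2, ℤ)) (hg : g ∈ Gamma0 11) (z : ℍ) : G (g • z) = G z := by
  have h := congrFun (F_slash g hg) z
  rw [SL_slash_apply] at h
  have hd : denom g z ≠ 0 := denom_ne_zero _ _
  have h1 : F (g • z) = F z * denom g z ^ 2 := by
    rw [← h, mul_assoc]
    have : (denom g z) ^ (-(2 : ℤ)) * (denom g z) ^ 2 = 1 := by
      rw [zpow_neg]
      norm_cast
      rw [inv_mul_cancel₀ (pow_ne_zero _ hd)]
    rw [this, mul_one]
  unfold G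
  rw [h1, ModularGroup.im_smul_eq_div_normSq, norm_mul, norm_pow, Complex.normSq_eq_norm_sq]
  have hn : ‖denom g z‖ ≠ 0 := norm_ne_zero_iff.mpr hd
  field_simp

theorem G_coset (g h : SL(2, ℤ)) (hgh : g * h⁻¹ ∈ Gamma0 11) (z : ℍ) : G (g • z) = G (h • z) := by
  have := G_inv _ hgh (h • z)
  rw [← this, ← mul_smul]
  simp

/-- Fricke invariance, in the form used below -/
theorem G_W (z w : ℍ) (hw : (w : ℂ) = -1 / (11 * z)) : G w = G z := by
  have h1 : F w = -11 * (z : ℂ) ^ 2 * F z := by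
    rw [F_eq, hw]
    exact Fc_W z.2
  have hz0 : (z : ℂ) ≠ 0 := z.ne_zero
  have h2 : w.im = z.im / (11 * ‖(z : ℂ)‖ ^ 2) := by
    show (w : ℂ).im = _
    rw [hw, show (-1 / (11 * (z : ℂ))) = (-((z : ℂ)⁻¹)) / (11 : ℝ) by
      push_cast; field_simp, Complex.div_ofReal_im, Complex.neg_im, Complex.inv_im,
      Complex.normSq_eq_norm_sq]
    show -(-z.im / ‖(z : ℂ)‖ ^ 2) / 11 = _
    have hn : ‖(z : ℂ)‖ ≠ 0 := norm_ne_zero_iff.mpr hz0
    field_simp
  unfold G
  have hn : ‖(z : ℂ)‖ ≠ 0 := norm_ne_zero_iff.mpr hz0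
  rw [h1, h2, norm_mul, norm_mul, norm_pow]
  norm_num
  field_simp

/-- `G ((z+j)/11) = G (S T^j z)` -/
theorem G_sh (j : ℕ) (z : ℍ) :
    G (sh j z) = G ((ModularGroup.S * ModularGroup.T ^ (j : ℤ)) • z) := by
  symm
  apply G_W
  rw [sh_coe, mul_smul, UpperHalfPlane.modular_S_smul, UpperHalfPlane.modular_T_zpow_smul]
  show (-(((((j : ℤ) : ℝ) +ᵥ z : ℍ)) : ℂ))⁻¹ = _
  rw [coe_vadd, mul_div_cancel₀ _ (by norm_num : (11 : ℂ) ≠ 0), neg_div, one_div, inv_neg]
  push_cast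
  rw [add_comm]

theorem H_eq (z : ℍ) : H z = G z + ∑ j ∈ Finset.range 11,
    G ((ModularGroup.S * ModularGroup.T ^ (j : ℤ)) • z) := by
  unfold H
  simp_rw [G_sh]

theorem T_mem : ModularGroup.T ∈ Gamma0 11 := by
  rw [Gamma0_mem]; simp [ModularGroup.T]

theorem STST (j k : ℤ) : ((ModularGroup.S * ModularGroup.T ^ j *
    (ModularGroup.S * ModularGroup.T ^ k)⁻¹ : SL(2, ℤ)) 1 0 : ℤ) = k - j := by
  simp [Matrix.mul_apply, Fin.sum_univ_two, ModularGroup.coe_T_zpow, ModularGroup.coe_S,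
      Matrix.adjugate_fin_two]
  try ring

theorem H_T (z : ℍ) : H (ModularGroup.T • z) = H z := by
  have h1 : ∀ j : ℕ, (ModularGroup.S * ModularGroup.T ^ (j : ℤ)) • ModularGroup.T • z
      = (ModularGroup.S * ModularGroup.T ^ (((j + 1 : ℕ) : ℤ))) • z := by
    intro j
    rw [← mul_smul, mul_assoc, ← zpow_add_one, Nat.cast_succ]
  have h2 : G ((ModularGroup.S * ModularGroup.T ^ (((10 + 1 : ℕ) : ℤ))) • z)
      = G ((ModularGroup.S * ModularGroup.T ^ (((0 : ℕ) : ℤ))) • z) := by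
    apply G_coset
    rw [Gamma0_mem, STST]
    decide
  rw [H_eq, H_eq, G_inv _ T_mem]
  simp_rw [h1]
  rw [Finset.sum_range_succ, h2, ← Finset.sum_range_succ'
    (fun j : ℕ => G ((ModularGroup.S * ModularGroup.T ^ (j : ℤ)) • z)) 10]

theorem STSTS (j k : ℤ) : ((ModularGroup.S * ModularGroup.T ^ j * ModularGroup.S *
    (ModularGroup.S * ModularGroup.T ^ k)⁻¹ : SL(2, ℤ)) 1 0 : ℤ) = j * k + 1 := by
  simp [Matrix.mul_apply, Fin.sum_univ_two, ModularGroup.coe_T_zpow, ModularGroup.coe_S,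
      Matrix.adjugate_fin_two]
  try ring

theorem H_S (z : ℍ) : H (ModularGroup.S • z) = H z := by
  rw [H_eq, H_eq]
  have key : ∀ j k : ℤ, ((j * k + 1 : ℤ) : ZMod 11) = 0 →
      G ((ModularGroup.S * ModularGroup.T ^ j) • ModularGroup.S • z)
        = G ((ModularGroup.S * ModularGroup.T ^ k) • z) := by
    intro j k hjk
    rw [← mul_smul]
    apply G_coset
    rw [Gamma0_mem, STSTS, hjk]
  have h0 : G ((ModularGroup.S * ModularGroup.T ^ (0 : ℤ)) • ModularGroup.S • z) = G z := by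
    rw [zpow_zero, mul_one, ← mul_smul]
    have : G ((ModularGroup.S * ModularGroup.S) • z) = G ((1 : SL(2, ℤ)) • z) := by
      apply G_coset
      rw [Gamma0_mem]
      simp [ModularGroup.coe_S]
    rw [this, one_smul]
  have h0' : G (ModularGroup.S • z) = G ((ModularGroup.S * ModularGroup.T ^ (0 : ℤ)) • z) := by
    rw [zpow_zero, mul_one]
  simp only [Finset.sum_range_succ, Finset.sum_range_zero, Nat.cast_zero, Nat.cast_ofNat,
    Nat.cast_one, zero_add]
  rw [h0, h0', key 1 10 (by decide), key 2 5 (by decide), key 3 7 (by decide),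
    key 4 8 (by decide), key 5 2 (by decide), key 6 9 (by decide), key 7 3 (by decide),
    key 8 4 (by decide), key 9 6 (by decide), key 10 1 (by decide)]
  ring

theorem H_inv (g : SL(2, ℤ)) (z : ℍ) : H (g • z) = H z := by
  have h : g ∈ (⊤ : Subgroup SL(2, ℤ)) := trivial
  rw [← SpecialLinearGroup.SL2Z_generators] at h
  induction h using Subgroup.closure_induction generalizing z with
  | mem x hx =>
    rcases hx with rfl | hx
    · exact H_S z
    · rw [Set.mem_singleton_iff] at hx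
      subst hx
      exact H_T z
  | one => rw [one_smul]
  | mul x y _ _ hx hy => rw [mul_smul, hx, hy]
  | inv x _ hx =>
    have := hx (x⁻¹ • z)
    rw [smul_inv_smul] at this
    exact this.symm

/-! ### Continuity, decay, boundedness -/

theorem F_cont : Continuous F := F_mdiff.continuous

theorem G_cont : Continuous G :=
  (F_cont.norm.pow 2).mul (UpperHalfPlane.continuous_im.pow 2)

theorem sh_cont (j : ℕ) : Continuous (sh j) := by
  have h : Continuous fun z : ℍ => ((z : ℂ) + j) / 11 :=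
    (UpperHalfPlane.continuous_coe.add continuous_const).div_const _
  exact h.upperHalfPlaneMk (sh_pos j)

theorem H_cont : Continuous H :=
  G_cont.add (continuous_finsetSum _ fun j _ => G_cont.comp (sh_cont j))

/-- upper bound for `F`, uniform in any half-plane `y ≥ y₀ > 0` -/
theorem Fc_upper {y0 : ℝ} (hy0 : 0 < y0) : ∃ C, 0 < C ∧ ∀ z : ℂ, y0 ≤ z.im →
    ‖Fc z‖ ≤ C * Real.exp (-(2 * π * z.im)) := by
  have hs : Summable fun n : ℕ => ‖(a n : ℂ)‖ * Real.exp (-(2 * π * y0)) ^ n := by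
    have h1 := (hasSum_Fc (z := (y0 : ℂ) * I) (by simpa using hy0)).summable.norm
    refine h1.congr fun n => ?_
    rw [norm_mul, norm_pow, norm_qq]
    simp
  set S : ℝ := ∑' n : ℕ, ‖(a n : ℂ)‖ * Real.exp (-(2 * π * y0)) ^ n with hS
  have hS0 : 0 ≤ S := tsum_nonneg fun n => by positivity
  refine ⟨(S + 1) * Real.exp (2 * π * y0), by positivity, fun z hz => ?_⟩
  have hz0 : 0 < z.im := by linarith
  have hF := hasSum_Fc hz0
  have hle : ∀ n : ℕ, ‖(a n : ℂ) * qq z ^ n‖ ≤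
      (Real.exp (-(2 * π * z.im)) * Real.exp (2 * π * y0)) *
        (‖(a n : ℂ)‖ * Real.exp (-(2 * π * y0)) ^ n) := by
    intro n
    rcases Nat.eq_zero_or_pos n with rfl | hn
    · rw [a_zero]; simp
    · rw [norm_mul, norm_pow, norm_qq]
      have h1 : Real.exp (-(2 * π * z.im)) ^ n ≤
          Real.exp (-(2 * π * z.im)) * Real.exp (2 * π * y0) * Real.exp (-(2 * π * y0)) ^ n := by
        rw [← Real.exp_nat_mul, ← Real.exp_nat_mul, ← Real.exp_add, ← Real.exp_add]
        apply Real.exp_le_exp.mpr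
        have hn1 : (1 : ℝ) ≤ n := by exact_mod_cast hn
        have : 0 ≤ 2 * π * (z.im - y0) * (n - 1) :=
          mul_nonneg (mul_nonneg (by positivity) (by linarith)) (by linarith)
        nlinarith [this]
      calc ‖(a n : ℂ)‖ * Real.exp (-(2 * π * z.im)) ^ n ≤ ‖(a n : ℂ)‖ *
          (Real.exp (-(2 * π * z.im)) * Real.exp (2 * π * y0) * Real.exp (-(2 * π * y0)) ^ n) := by
            gcongr
        _ = _ := by ring
  have hn := hF.summable.norm
  calc ‖Fc z‖ = ‖∑' n : ℕ, (a n : ℂ) * qq z ^ n‖ := by rw [hF.tsum_eq]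
    _ ≤ ∑' n : ℕ, ‖(a n : ℂ) * qq z ^ n‖ := norm_tsum_le_tsum_norm hn
    _ ≤ ∑' n : ℕ, (Real.exp (-(2 * π * z.im)) * Real.exp (2 * π * y0)) *
        (‖(a n : ℂ)‖ * Real.exp (-(2 * π * y0)) ^ n) :=
          hn.tsum_le_tsum hle (hs.mul_left _)
    _ = (Real.exp (-(2 * π * z.im)) * Real.exp (2 * π * y0)) * S := by rw [tsum_mul_left]
    _ ≤ (Real.exp (-(2 * π * z.im)) * Real.exp (2 * π * y0)) * (S + 1) := by
        gcongr; linarith
    _ = _ := by ring

theorem H_dec : ∃ C c, 0 < c ∧ 0 < C ∧ ∀ z : ℍ, 1 / 2 ≤ z.im →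
    H z ≤ C * Real.exp (-(c * z.im)) := by
  obtain ⟨K, hK, hF⟩ := Fc_upper (y0 := 1 / 22) (by norm_num)
  refine ⟨24 * K ^ 2, 4 * π / 11 - 1, ?_, by positivity, fun z hz => ?_⟩
  · have := Real.pi_gt_three
    have : 1 < 4 * π / 11 := by linarith
    linarith
  have hy : 0 < z.im := z.2
  have hG : ∀ w : ℍ, z.im / 11 ≤ w.im → w.im ≤ z.im →
      G w ≤ K ^ 2 * Real.exp (-(4 * π / 11 * z.im)) * z.im ^ 2 := by
    intro w hw1 hw2
    have h1 := hF w (by
      have : (w : ℂ).im = w.im := rfl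
      rw [this]
      linarith)
    have hw0 : 0 < w.im := w.2
    unfold G
    calc ‖F w‖ ^ 2 * w.im ^ 2 ≤ (K * Real.exp (-(2 * π * w.im))) ^ 2 * z.im ^ 2 := by
          gcongr
          exact h1
      _ = K ^ 2 * Real.exp (-(4 * π * w.im)) * z.im ^ 2 := by
          rw [mul_pow, ← Real.exp_nat_mul]
          congr 3
          push_cast
          ring
      _ ≤ K ^ 2 * Real.exp (-(4 * π / 11 * z.im)) * z.im ^ 2 := by
          have h4 : 4 * π * (z.im / 11) ≤ 4 * π * w.im :=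
            mul_le_mul_of_nonneg_left hw1 (by positivity)
          have h5 : -(4 * π * w.im) ≤ -(4 * π / 11 * z.im) := by
            have : 4 * π / 11 * z.im = 4 * π * (z.im / 11) := by ring
            rw [this]; linarith
          have h6 := Real.exp_le_exp.mpr h5
          exact mul_le_mul_of_nonneg_right (mul_le_mul_of_nonneg_left h6 (sq_nonneg _))
            (sq_nonneg _)
  have h2 : z.im ^ 2 ≤ 2 * Real.exp z.im := by
    have := Real.pow_div_factorial_le_exp z.im hy.le 2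
    norm_num [Nat.factorial] at this
    linarith
  have hH : H z ≤ 12 * (K ^ 2 * Real.exp (-(4 * π / 11 * z.im)) * z.im ^ 2) := by
    unfold H
    have e1 := hG z (by linarith) le_rfl
    have e2 : ∑ j ∈ Finset.range 11, G (sh j z) ≤
        ∑ j ∈ Finset.range 11, K ^ 2 * Real.exp (-(4 * π / 11 * z.im)) * z.im ^ 2 := by
      apply Finset.sum_le_sum
      intro j _
      exact hG _ (by rw [sh_im]) (by rw [sh_im]; linarith)
    rw [Finset.sum_const, Finset.card_range, nsmul_eq_mul] at e2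
    push_cast at e2
    linarith
  refine hH.trans ?_
  calc 12 * (K ^ 2 * Real.exp (-(4 * π / 11 * z.im)) * z.im ^ 2)
      ≤ 12 * (K ^ 2 * Real.exp (-(4 * π / 11 * z.im)) * (2 * Real.exp z.im)) := by gcongr
    _ = 24 * K ^ 2 * (Real.exp (-(4 * π / 11 * z.im)) * Real.exp z.im) := by ring
    _ = 24 * K ^ 2 * Real.exp (-((4 * π / 11 - 1) * z.im)) := by
        rw [← Real.exp_add]
        congr 2
        ring

theorem H_bdd : ∃ C, 0 < C ∧ ∀ z : ℍ, H z ≤ C := by
  obtain ⟨C, c, hc, hC, h⟩ := H_dec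
  refine ⟨C, hC, fun z => ?_⟩
  obtain ⟨g, hg⟩ := ModularGroup.exists_smul_mem_fd z
  have h1 := ModularGroup.three_le_four_mul_im_sq_of_mem_fd hg
  have hpos : 0 < (g • z).im := (g • z).2
  have h2 : 1 / 2 ≤ (g • z).im := by nlinarith
  rw [← H_inv g z]
  refine (h _ h2).trans ?_
  have : Real.exp (-(c * (g • z).im)) ≤ 1 := Real.exp_le_one_iff.mpr (by
    have := mul_pos hc hpos
    linarith)
  nlinarith

/-- `|F| ≤ C / y` -/
theorem F_le : ∃ C, 0 < C ∧ ∀ z : ℍ, ‖F z‖ * z.im ≤ C := by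
  obtain ⟨C, hC, h⟩ := H_bdd
  refine ⟨Real.sqrt C, Real.sqrt_pos.mpr hC, fun z => ?_⟩
  apply Real.le_sqrt_of_sq_le
  have h1 : G z ≤ H z := le_add_of_nonneg_right (Finset.sum_nonneg fun _ _ => G_nonneg _)
  calc (‖F z‖ * z.im) ^ 2 = G z := by unfold G; ring
    _ ≤ C := h1.trans (h z)

end Vale.Agent.P004H.H833
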