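import Mathlib

/-!
# Pairs of integers, coprime pairs and bottom rows of `SL(2,ℤ)`

Row R14-RS, P2 (helper86 #17207).
-/

open UpperHalfPlane hiding I
open MatrixGroups
open scoped ENNReal

namespace Vale.Agent.P004H.H833

/-- coprime pairs -/
abbrev Cop : Type := {p : ℤ × ℤ // IsCoprime p.1 p.2}

theorem gcd_pos_of_ne {p : ℤ × ℤ} (hp : p ≠ 0) : 0 < Int.gcd p.1 p.2 := by
  rw [Int.gcd_pos_iff]
  by_contra h
  push Not at h
  exact hp (Prod.ext h.1 h.2)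

theorem cop_div {p : ℤ × ℤ} (hp : p ≠ 0) :
    IsCoprime (p.1 / (Int.gcd p.1 p.2 : ℤ)) (p.2 / (Int.gcd p.1 p.2 : ℤ)) := by
  rw [Int.isCoprime_iff_gcd_eq_one]
  exact Int.gcd_div_gcd_div_gcd (gcd_pos_of_ne hp)

/-- `(n, (c,d)) ↦ ((n+1)c, (n+1)d)` is a bijection from `ℕ × coprime pairs` to nonzero pairs -/
noncomputable def pairEquiv : ℕ × Cop ≃ {p : ℤ × ℤ // p ≠ 0} where
  toFun x := ⟨(((x.1 : ℤ) + 1) * x.2.1.1, ((x.1 : ℤ) + 1) * x.2.1.2), by
    intro h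
    have h1 : ((x.1 : ℤ) + 1) * x.2.1.1 = 0 := congrArg Prod.fst h
    have h2 : ((x.1 : ℤ) + 1) * x.2.1.2 = 0 := congrArg Prod.snd h
    have h0 : ((x.1 : ℤ) + 1) ≠ 0 := by positivity
    have h3 := (mul_eq_zero.mp h1).resolve_left h0
    have h4 := (mul_eq_zero.mp h2).resolve_left h0
    have := x.2.2
    rw [h3, h4] at this
    exact not_isCoprime_zero_zero this⟩
  invFun p := (Int.gcd p.1.1 p.1.2 - 1,
    ⟨(p.1.1 / (Int.gcd p.1.1 p.1.2 : ℤ), p.1.2 / (Int.gcd p.1.1 p.1.2 : ℤ)), cop_div p.2⟩)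
  left_inv := by
    rintro ⟨n, ⟨c, d⟩, h⟩
    have hg : Int.gcd (((n : ℤ) + 1) * c) (((n : ℤ) + 1) * d) = n + 1 := by
      rw [Int.gcd_mul_left]
      have h1 : Int.gcd c d = 1 := Int.isCoprime_iff_gcd_eq_one.mp h
      rw [h1, mul_one]
      rfl
    have h0 : ((n : ℤ) + 1) ≠ 0 := by positivity
    ext
    · simp [hg]
    · simp only [hg]
      push_cast
      rw [Int.mul_ediv_cancel_left _ h0]
    · simp only [hg]
      push_cast
      rw [Int.mul_ediv_cancel_left _ h0]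
  right_inv := by
    rintro ⟨⟨c, d⟩, h⟩
    have hg := gcd_pos_of_ne h
    have h1 : (((Int.gcd c d - 1 : ℕ) : ℤ) + 1) = (Int.gcd c d : ℤ) := by
      have : 1 ≤ Int.gcd c d := hg
      omega
    apply Subtype.ext
    apply Prod.ext
    · show (((Int.gcd c d - 1 : ℕ) : ℤ) + 1) * (c / (Int.gcd c d : ℤ)) = c
      rw [h1]
      exact Int.mul_ediv_cancel' (Int.gcd_dvd_left ..)
    · show (((Int.gcd c d - 1 : ℕ) : ℤ) + 1) * (d / (Int.gcd c d : ℤ)) = d
      rw [h1]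
      exact Int.mul_ediv_cancel' (Int.gcd_dvd_right ..)

/-- sum over `ℤ²` as `0` plus multiples of coprime pairs -/
theorem sum_Z2 (f : ℤ × ℤ → ℝ≥0∞) :
    ∑' p : ℤ × ℤ, f p = f 0 + ∑' n : ℕ, ∑' p : Cop,
      f (((n : ℤ) + 1) * p.1.1, ((n : ℤ) + 1) * p.1.2) := by
  have h1 : ∑' p : ℤ × ℤ, f p = f 0 + ∑' p : {p : ℤ × ℤ // p ≠ 0}, f p.1 := by
    rw [ENNReal.summable.tsum_eq_add_tsum_ite' 0]
    congr 1
    have h2 := tsum_subtype {p : ℤ × ℤ | p ≠ 0} f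
    refine Eq.trans ?_ h2.symm
    refine tsum_congr fun p => ?_
    by_cases hp : p = 0
    · simp [hp]
    · simp [hp]
  rw [h1]
  congr 1
  rw [← pairEquiv.tsum_eq]
  exact ENNReal.tsum_prod (f := fun n p => f (pairEquiv (n, p)).1)

/-! ### `SL(2,ℤ)` as `T^ℤ` times bottom rows -/

theorem exists_gam (p : Cop) : ∃ g : SL(2, ℤ), g 1 0 = p.1.1 ∧ g 1 1 = p.1.2 := by
  obtain ⟨g, -, hg⟩ := ModularGroup.bottom_row_surj (R := ℤ)
    (show ![p.1.1, p.1.2] ∈ {cd : Fin 2 → ℤ | IsCoprime (cd 0) (cd 1)} from p.2)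
  exact ⟨g, by simpa using congrFun hg 0, by simpa using congrFun hg 1⟩

/-- a chosen matrix with a given bottom row -/
noncomputable def gam (p : Cop) : SL(2, ℤ) := (exists_gam p).choose

theorem gam_ten (p : Cop) : (gam p) 1 0 = p.1.1 := (exists_gam p).choose_spec.1

theorem gam_eleven (p : Cop) : (gam p) 1 1 = p.1.2 := (exists_gam p).choose_spec.2

/-- the bottom row of a matrix -/
def brow (g : SL(2, ℤ)) : Cop := ⟨(g 1 0, g 1 1), by
  have := ModularGroup.bottom_row_coprime g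
  exact this⟩

theorem brow_gam (p : Cop) : brow (gam p) = p := by
  apply Subtype.ext
  exact Prod.ext (gam_ten p) (gam_eleven p)

theorem T_mul_row (k : ℤ) (g : SL(2, ℤ)) (i : Fin 2) : (ModularGroup.T ^ k * g) 1 i = g 1 i := by
  simp [Matrix.mul_apply, Fin.sum_univ_two, ModularGroup.coe_T_zpow]

theorem T_mul_row0 (k : ℤ) (g : SL(2, ℤ)) (i : Fin 2) :
    (ModularGroup.T ^ k * g) 0 i = g 0 i + k * g 1 i := by
  simp [Matrix.mul_apply, Fin.sum_univ_two, ModularGroup.coe_T_zpow]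

theorem brow_T (k : ℤ) (g : SL(2, ℤ)) : brow (ModularGroup.T ^ k * g) = brow g := by
  apply Subtype.ext
  exact Prod.ext (T_mul_row k g 0) (T_mul_row k g 1)

theorem det' (g : SL(2, ℤ)) : g 0 0 * g 1 1 - g 0 1 * g 1 0 = 1 := by
  have := g.det_coe
  rwa [Matrix.det_fin_two] at this

theorem exists_T (g h : SL(2, ℤ)) (hgh : brow g = brow h) : ∃ k : ℤ, g = ModularGroup.T ^ k * h := by
  have h0 : g 1 0 = h 1 0 := congrArg (fun p : Cop => p.1.1) hgh
  have h1 : g 1 1 = h 1 1 := congrArg (fun p : Cop => p.1.2) hgh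
  have dg := det' g
  have dh := det' h
  refine ⟨g 0 1 * h 0 0 - g 0 0 * h 0 1, ?_⟩
  ext i j
  fin_cases i
  · fin_cases j
    · show g 0 0 = (ModularGroup.T ^ _ * h) 0 0
      rw [T_mul_row0]
      rw [h0, h1] at dg
      linear_combination (- g 0 0) * dh + h 0 0 * dg
    · show g 0 1 = (ModularGroup.T ^ _ * h) 0 1
      rw [T_mul_row0]
      rw [h0, h1] at dg
      linear_combination (- g 0 1) * dh + h 0 1 * dg
  · fin_cases j
    · show g 1 0 = (ModularGroup.T ^ _ * h) 1 0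
      rw [T_mul_row, h0]
    · show g 1 1 = (ModularGroup.T ^ _ * h) 1 1
      rw [T_mul_row, h1]

theorem T_inj {j k : ℤ} {g : SL(2, ℤ)} (h : ModularGroup.T ^ j * g = ModularGroup.T ^ k * g) :
    j = k := by
  have h1 := mul_right_cancel h
  have h2 : ((ModularGroup.T ^ j : SL(2, ℤ)) 0 1 : ℤ) = (ModularGroup.T ^ k : SL(2, ℤ)) 0 1 := by
    rw [h1]
  simpa [ModularGroup.coe_T_zpow] using h2

/-- `(k, p) ↦ T^k γ_p` is a bijection from `ℤ × coprime pairs` to `SL(2,ℤ)` -/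
noncomputable def rowEquiv : ℤ × Cop ≃ SL(2, ℤ) :=
  Equiv.ofBijective (fun x => ModularGroup.T ^ x.1 * gam x.2) ⟨by
    rintro ⟨j, p⟩ ⟨k, q⟩ h
    have h' : ModularGroup.T ^ j * gam p = ModularGroup.T ^ k * gam q := h
    have hb := congrArg brow h'
    rw [brow_T, brow_T, brow_gam, brow_gam] at hb
    subst hb
    rw [T_inj h'], by
    intro g
    obtain ⟨k, hk⟩ := exists_T g (gam (brow g)) (by rw [brow_gam])
    exact ⟨(k, brow g), hk.symm⟩⟩

theorem rowEquiv_apply (x : ℤ × Cop) : rowEquiv x = ModularGroup.T ^ x.1 * gam x.2 := rfl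

theorem sum_SL2 (f : SL(2, ℤ) → ℝ≥0∞) :
    ∑' g, f g = ∑' k : ℤ, ∑' p : Cop, f (ModularGroup.T ^ k * gam p) := by
  rw [← rowEquiv.tsum_eq]
  exact ENNReal.tsum_prod (f := fun k p => f (rowEquiv (k, p)))

/-- the imaginary part of `γ_p z` -/
theorem im_gam (p : Cop) (z : ℍ) : (gam p • z).im =
    z.im / ((p.1.1 * z.re + p.1.2) ^ 2 + (p.1.1 * z.im) ^ 2) := by
  rw [ModularGroup.im_smul_eq_div_normSq, ModularGroup.denom_apply, gam_ten, gam_eleven,
    Complex.normSq_apply]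
  congr 1
  simp
  ring

end Vale.Agent.P004H.H833
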